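import Vale.Agent.Lib.P309.S.Defs
import Vale.Agent.Lib.P309.K.Final

/-!
# P309 B: the quantised Kaczmarz learner as a `Learner`
-/

open MeasureTheory ProbabilityTheory
open scoped ENNReal RealInnerProductSpace
open Vale.Agent.Results.P309.MemoryThreshold

namespace Vale.Agent.Lib.P309.B

/-- The quantised Kaczmarz learner: deterministic (the seed space is a point), it never stops early,
its rules do not depend on the index. -/
noncomputable def kLearner (h : ℝ) (d G : ℕ) (e0 : Sph d) : Learner d where
  State := K.St d G
  Seed := Unit
  seedLaw := Measure.dirac ()
  init := fun _ => K.kinit h d G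
  step := fun _ z ξ y _ => K.kstep h z ξ y
  halt := fun _ _ _ _ _ => false
  out := fun z _ => K.kout h e0 z
  measurable_out := fun _ => measurable_const

end Vale.Agent.Lib.P309.B
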