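import Vale.Agent.Lib.P309.B.Defs

/-! # P309 B: the quantised Kaczmarz learner is measurable -/

open MeasureTheory ProbabilityTheory
open scoped ENNReal RealInnerProductSpace
open Vale.Agent.Results.P309.MemoryThreshold

namespace Vale.Agent.Lib.P309.B

private lemma step_aux (h : ℝ) (d G : ℕ) (m m' : K.St d G) :
    MeasurableSet {p : E d × ℝ × Unit | K.kstep h m p.1 p.2.1 = m'} := by
  have h0 : Measurable (fun p : E d × ℝ × Unit => ((p.1, p.2.1) : E d × ℝ)) :=
    measurable_fst.prodMk (measurable_fst.comp measurable_snd)
  have h1 := K.measurable_kstep h m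
  have h2 := h1.comp h0
  have h3 := h2 (measurableSet_singleton m')
  exact h3

/-- init: a constant (`MeasurableSet.const` / `by_cases`).  step: the set is the preimage of the
singleton `{m'}` under `p ↦ K.kstep h m p.1 p.2.1`, measurable by `K.measurable_kstep h m` composed
with `p ↦ (p.1, p.2.1)`; singletons of `K.St d G` are measurable (`measurableSet_singleton` or
`MeasurableSet.of_discrete`).  halt: the empty set. -/
theorem isMeas_kLearner (h : ℝ) (d G : ℕ) (e0 : Sph d) : S.IsMeas (kLearner h d G e0) := by
  refine ⟨?_, ?_, ?_⟩
  · intro m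
    exact MeasurableSet.const (K.kinit h d G = m)
  · intro t m m'
    exact step_aux h d G m m'
  · intro t m
    exact MeasurableSet.const (false = true)

end Vale.Agent.Lib.P309.B
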