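import Mathlib

/-! # P309 B: the first `T` coordinates of an infinite product measure -/

open MeasureTheory ProbabilityTheory

namespace Vale.Agent.Lib.P309.B

/-- `Measure.pi_eq` (symmetric form): for measurable boxes `Set.univ.pi t`, the preimage is
`Set.pi (Finset.range T) t'` with `t' n = if h : n < T then t ⟨n, h⟩ else univ`; its measure is
`∏ n ∈ range T, γ (t' n)` by `Measure.infinitePi_pi`, which equals `∏ i : Fin T, γ (t i)`
(`Finset.prod_range` / `Fin.prod_univ_eq_prod_range`).  (Or use `Measure.infinitePi_map_restrict` and a
reindexing `measurePreserving_piCongrLeft`.) -/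
theorem map_restrict {X : Type*} [MeasurableSpace X] (γ : Measure X) [IsProbabilityMeasure γ]
    (T : ℕ) :
    (Measure.infinitePi fun _ : ℕ => γ).map (fun x (i : Fin T) => x i) =
      Measure.pi fun _ : Fin T => γ := by
  symm
  apply Measure.pi_eq
  intro t ht
  have hmeas : Measurable (fun (x : ℕ → X) (i : Fin T) => x i) := by
    apply measurable_pi_lambda
    intro i
    exact measurable_pi_apply _
  rw [Measure.map_apply hmeas (MeasurableSet.univ_pi ht)]
  set t' : ℕ → Set X := fun n => if h : n < T then t ⟨n, h⟩ else Set.univ with ht'
  have hpre : (fun (x : ℕ → X) (i : Fin T) => x i) ⁻¹' (Set.univ.pi t)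
      = Set.pi (Finset.range T : Set ℕ) t' := by
    ext x
    simp only [Set.mem_preimage, Set.mem_pi, Set.mem_univ, true_implies, Finset.coe_range,
      Set.mem_Iio]
    constructor
    · intro h n hn
      simp only [ht', dif_pos hn]
      exact h ⟨n, hn⟩
    · intro h i
      have := h i i.2
      simp only [ht', dif_pos i.2] at this
      exact this
  rw [hpre, Measure.infinitePi_pi]
  · rw [Finset.prod_range]
    apply Finset.prod_congr rfl
    intro i _
    simp only [ht', dif_pos i.2]
  · intro n hn
    have hn' : n < T := Finset.mem_range.1 hn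
    simp only [ht', dif_pos hn']
    exact ht _

end Vale.Agent.Lib.P309.B
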