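import Vale.Agent.Lib.P309.B.Defs
import Vale.Agent.Lib.P309.B.Restrict

/-! # P309 B: transfer of the law -/

open MeasureTheory ProbabilityTheory
open scoped ENNReal RealInnerProductSpace
open Vale.Agent.Results.P309.MemoryThreshold

namespace Vale.Agent.Lib.P309.B

/-- `Φ ω = (ω.1, fun i => ω.2.1 i) = Prod.map id (r ∘ Prod.fst)` with `r x = fun i : Fin T => x i`
measurable.  `(kLearner ..).law = (unif d).prod (Γ.prod (dirac ()))` by definition, and
`law.map Φ = (unif d).prod ((Γ.prod (dirac ())).map (r ∘ Prod.fst))` (`Measure.map_prod_map`, or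
`MeasurePreserving.prod`/`MeasurePreserving.id`), `(Γ.prod ρ).map Prod.fst = Γ`
(`Measure.map_fst_prod`, `measure_univ`, `one_smul`), `Γ.map r = Measure.pi ..` (`map_restrict`,
`Measure.map_map`).  Finally `Measure.map_apply` for the measurable set `S`.  `unif d` is s-finite
(`unfold unif; infer_instance`).  `K.unif d` and `unif d` are the same by definition (`rfl`). -/
theorem law_kLearner (h : ℝ) (d G : ℕ) (e0 : Sph d) (T : ℕ) {S : Set (Sph d × (Fin T → E d))}
    (hS : MeasurableSet S) :
    (kLearner h d G e0).law {ω | ((ω.1, fun i : Fin T => ω.2.1 i) : Sph d × (Fin T → E d)) ∈ S} =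
      ((K.unif d).prod (Measure.pi fun _ : Fin T => stdGaussian (E d))) S := by
  have hsf : SFinite (unif d) := by
    unfold unif
    infer_instance
  have hr : Measurable (fun (x : ℕ → E d) (i : Fin T) => x i) :=
    measurable_pi_lambda _ fun i => measurable_pi_apply _
  have hg : Measurable ((fun (x : ℕ → E d) (i : Fin T) => x i) ∘
      (Prod.fst : (ℕ → E d) × Unit → (ℕ → E d))) := hr.comp measurable_fst
  have hΦ : Measurable (Prod.map (id : Sph d → Sph d)
      ((fun (x : ℕ → E d) (i : Fin T) => x i) ∘ (Prod.fst : (ℕ → E d) × Unit → (ℕ → E d)))) :=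
    measurable_id.prodMap hg
  have hmap : ((unif d).prod ((Measure.infinitePi fun _ : ℕ => stdGaussian (E d)).prod
        (Measure.dirac ()))).map (Prod.map (id : Sph d → Sph d)
      ((fun (x : ℕ → E d) (i : Fin T) => x i) ∘ (Prod.fst : (ℕ → E d) × Unit → (ℕ → E d))))
      = (unif d).prod (Measure.pi fun _ : Fin T => stdGaussian (E d)) := by
    rw [← Measure.map_prod_map _ _ measurable_id hg, Measure.map_id,
      ← Measure.map_map hr measurable_fst, Measure.map_fst_prod, measure_univ, one_smul,
      map_restrict]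
  have hfin := Measure.map_apply hΦ hS (μ := (unif d).prod
    ((Measure.infinitePi fun _ : ℕ => stdGaussian (E d)).prod (Measure.dirac ())))
  rw [hmap] at hfin
  exact hfin.symm

end Vale.Agent.Lib.P309.B
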