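import Vale.Agent.Lib.P309.B.Snoc
import Vale.Agent.Lib.P309.B.Law
import Vale.Agent.Lib.P309.B.IsMeas
import Vale.Agent.Lib.P309.S.Main

/-! # P309 B: the three bounds in the `Learner` model -/

open MeasureTheory ProbabilityTheory
open scoped ENNReal RealInnerProductSpace
open Vale.Agent.Results.P309.MemoryThreshold

namespace Vale.Agent.Lib.P309.B

theorem succeeds_kLearner (d : ℕ) (hd : 1 ≤ d) (ε : ℝ) (h0 : 0 < ε) (h1 : ε ≤ Real.pi / 2)
    (e0 : Sph d) :
    (kLearner (K.gridH d ε) d (K.gridG d ε) e0).Succeeds (K.horT d ε) ε := by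
  unfold Learner.Succeeds
  have h2 := K.two_thirds_le_succSet d hd ε h0 h1 e0
  rw [← law_kLearner (K.gridH d ε) d (K.gridG d ε) e0 (K.horT d ε)
    (K.measurableSet_succSet d ε e0)] at h2
  refine h2.trans (le_of_eq ?_)
  congr 1
  ext ω
  have hrun := run_kLearner (K.gridH d ε) d (K.gridG d ε) e0 ω.1 ω.2.1 ω.2.2 (K.horT d ε)
  change _ ↔ Real.arccos ⟪((kLearner (K.gridH d ε) d (K.gridG d ε) e0).out
    ((kLearner (K.gridH d ε) d (K.gridG d ε) e0).run ω.1 ω.2.1 ω.2.2 (K.horT d ε)).1 ω.2.2 : E d),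
      (ω.1 : E d)⟫ ≤ ε
  rw [hrun]
  rfl

theorem card_kLearner (d : ℕ) (ε : ℝ) (h0 : 0 < Real.sin ε) (e0 : Sph d) :
    (Fintype.card (kLearner (K.gridH d ε) d (K.gridG d ε) e0).State : ℝ) ≤
      (6 * (d : ℝ) * Real.sqrt d / Real.sin ε + 2) ^ d := by
  have e : Fintype.card (kLearner (K.gridH d ε) d (K.gridG d ε) e0).State
      = (K.gridG d ε + 1) ^ d := by
    change Fintype.card (Fin d → Fin (K.gridG d ε + 1)) = _
    rw [Fintype.card_fun, Fintype.card_fin, Fintype.card_fin]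
  rw [e]
  push_cast
  apply pow_le_pow_left₀ (by positivity)
  have : (K.gridG d ε : ℝ) < 6 * (d : ℝ) * Real.sqrt d / Real.sin ε + 1 :=
    Nat.ceil_lt_add_one (by positivity)
  linarith

/-- the sample bound in logarithmic form -/
theorem sample_log {d : ℕ} (hd : 1 ≤ d) {ε : ℝ} (h0 : 0 < ε) (h1 : ε ≤ Real.pi / 2)
    (hlt : Real.sin ε < 1) (L : Learner d) (hL : S.IsMeas L) (T : ℕ) (hs : L.Succeeds T ε) :
    (d : ℝ) - ((d : ℝ) / 2 + 2) / Real.logb 2 (1 / Real.sin ε) ≤ T := by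
  have hc : 0 < Real.sin ε := Real.sin_pos_of_pos_of_lt_pi h0 (by linarith [Real.pi_pos])
  have key := S.sample_bound hd h0 h1 L hL T hs
  have hlam : 0 < Real.logb 2 (1 / Real.sin ε) :=
    Real.logb_pos (by norm_num) (by rw [one_lt_div hc]; exact hlt)
  have hlog := Real.logb_le_logb_of_le (b := 2) (by norm_num) (by norm_num) key
  have e1 : Real.logb 2 (Real.sqrt 2 ^ d * Real.sin ε ^ (d - T))
      = (d : ℝ) / 2 - ((d - T : ℕ) : ℝ) * Real.logb 2 (1 / Real.sin ε) := by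
    rw [Real.logb_mul (by positivity) (by positivity), Real.logb_pow, Real.logb_pow]
    have hsq : Real.logb 2 (Real.sqrt 2) = 1 / 2 := by
      rw [Real.sqrt_eq_rpow, Real.logb_rpow (by norm_num) (by norm_num)]
    have e3 : Real.logb 2 (1 / Real.sin ε) = - Real.logb 2 (Real.sin ε) := by
      rw [one_div, Real.logb_inv]
    rw [hsq, e3]
    ring
  have e2 : (-2 : ℝ) ≤ Real.logb 2 (1 / 3) := by
    rw [Real.le_logb_iff_rpow_le (by norm_num) (by norm_num)]
    have : (2 : ℝ) ^ (-2 : ℝ) = 1 / 4 := by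
      rw [Real.rpow_neg (by norm_num)]; norm_num
    rw [this]; norm_num
  rw [e1] at hlog
  have h3 : ((d - T : ℕ) : ℝ) * Real.logb 2 (1 / Real.sin ε) ≤ (d : ℝ) / 2 + 2 := by linarith
  have h4 : ((d - T : ℕ) : ℝ) ≤ ((d : ℝ) / 2 + 2) / Real.logb 2 (1 / Real.sin ε) := by
    rwa [le_div_iff₀ hlam]
  have h5 : (d : ℝ) - T ≤ ((d - T : ℕ) : ℝ) := by
    rcases le_total T d with h | h
    · rw [Nat.cast_sub h]
    · have : (d : ℝ) ≤ T := by exact_mod_cast h
      have h6 : (0 : ℝ) ≤ ((d - T : ℕ) : ℝ) := Nat.cast_nonneg _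
      linarith
  linarith

end Vale.Agent.Lib.P309.B
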