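import Vale.Agent.Lib.P309.B.Defs

/-! # P309 B: the two descriptions of the run agree -/

open scoped RealInnerProductSpace
open Vale.Agent.Results.P309.MemoryThreshold

namespace Vale.Agent.Lib.P309.B

/-- induction on `T`, for all `z` and `x` (unfold `K.runF`; `Fin.castSucc_zero`, `Fin.succ_castSucc`,
`Fin.succ_last`) -/
theorem runF_snoc {State : Type} {d : ℕ} (step : State → E d → ℝ → State) (s : E d) (T : ℕ)
    (z : State) (x : Fin (T + 1) → E d) :
    K.runF step s (T + 1) z x =
      step (K.runF step s T z (fun i => x i.castSucc)) (x (Fin.last T)) ⟪x (Fin.last T), s⟫ := by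
  induction T generalizing z with
  | zero =>
    simp only [K.runF]
    rfl
  | succ T ih =>
    have h1 : K.runF step s (T + 1 + 1) z x =
        K.runF step s (T + 1) (step z (x 0) ⟪x 0, s⟫) (fun i => x i.succ) := rfl
    rw [h1, ih]
    have h2 : K.runF step s (T + 1) z (fun i => x i.castSucc) =
        K.runF step s T (step z (x (Fin.castSucc 0)) ⟪x (Fin.castSucc 0), s⟫)
          (fun i => x (Fin.castSucc i.succ)) := rfl
    rw [h2]
    simp only [Fin.castSucc_zero, Fin.succ_castSucc, Fin.succ_last]

/-- induction on `t` with `runF_snoc` (unfold `Learner.run`, `kLearner`; the flag is always `false`) -/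
theorem run_kLearner (h : ℝ) (d G : ℕ) (e0 s : Sph d) (x : ℕ → E d) (w : Unit) (t : ℕ) :
    (kLearner h d G e0).run s x w t =
      (K.runF (K.kstep h) (s : E d) t (K.kinit h d G) (fun i : Fin t => x i), false) := by
  induction t with
  | zero => rfl
  | succ t ih =>
    have h1 : (kLearner h d G e0).run s x w (t + 1) =
        if ((kLearner h d G e0).run s x w t).2 then (kLearner h d G e0).run s x w t
        else ((kLearner h d G e0).step t ((kLearner h d G e0).run s x w t).1 (x t)
            ⟪x t, (s : E d)⟫ w,
          (kLearner h d G e0).halt t ((kLearner h d G e0).run s x w t).1 (x t)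
            ⟪x t, (s : E d)⟫ w) := rfl
    rw [h1, ih, runF_snoc]
    simp only [Bool.false_eq_true]
    rfl

end Vale.Agent.Lib.P309.B
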